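import Vale.Agent.P267.H535.SingLoc
import Vale.Agent.P267.H62.Fact
import Vale.Agent.P267.H331.Comp

/-! P267, package CHEAP-C0 (helper535): the zero set `Z` of a holomorphic function on a complex surface
is a smooth curve outside a countable set, and multiplicities at regular points. -/

open Set Filter Topology Metric
open scoped Manifold ContDiff

namespace Vale.Agent.P267.H535

open Vale.Agent.P267.H62 Vale.Agent.P267.H331

theorem finrank_fin_two : Module.finrank ℂ (Fin 2 → ℂ) = 2 := by simp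

theorem isCoord_fst {q : ℂ × ℂ} (hq : q.1 = 0) : IsCoord (ℂ × ℂ) (fun y => y.1) q := by
  refine ⟨holNear_iff.2 (Eventually.of_forall fun x => differentiableAt_fst), hq, fun h => ?_⟩
  rw [mfderiv_eq_fderiv] at h
  have h1 : HasFDerivAt (fun y : ℂ × ℂ => y.1) (ContinuousLinearMap.fst ℂ ℂ ℂ) q :=
    (ContinuousLinearMap.fst ℂ ℂ ℂ).hasFDerivAt
  rw [h1.fderiv] at h
  have h2 := DFunLike.congr_fun h ((1, 0) : ℂ × ℂ)
  exact one_ne_zero (α := ℂ) h2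

/-- the points where the zero set is not a smooth curve are countable -/
theorem countable_bad {U : Set (ℂ × ℂ)} {G : ℂ × ℂ → ℂ} (hU : IsOpen U)
    (hG : DifferentiableOn ℂ G U) (hd : ∀ x ∈ U, ∃ d, (Dw^[d] G) x ≠ 0) :
    {x | x ∈ U ∧ G x = 0 ∧ ¬ ∃ l, IsCoord (ℂ × ℂ) l x ∧ ∀ᶠ y in 𝓝 x, (G y = 0 ↔ l y = 0)}.Countable := by
  let S : ℕ → Set (ℂ × ℂ) := fun k => {x | x ∈ U ∧ (∀ i < k + 1, (Dw^[i] G) x = 0) ∧
    (Dw^[k + 1] G) x ≠ 0 ∧ ¬ ∃ l, IsCoord (ℂ × ℂ) l x ∧ ∀ᶠ y in 𝓝 x, (G y = 0 ↔ l y = 0)}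
  have hS : ∀ k, (S k).Countable := by
    intro k
    apply countable_of_isolated
    rintro x ⟨hxU, h0, h1, hno⟩
    rcases isolated_or_smooth hU hG hxU h0 h1 with h | h
    · filter_upwards [h] with y hy hyS
      exact hy hyS.2.1
    · exact absurd h hno
  refine (countable_iUnion hS).mono ?_
  rintro x ⟨hxU, hx0, hno⟩
  classical
  have hex := hd x hxU
  have h1 := Nat.find_spec hex
  have h2 : ∀ i < Nat.find hex, (Dw^[i] G) x = 0 := fun i hi => not_not.1 (Nat.find_min hex hi)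
  obtain ⟨k, hk⟩ : ∃ k, Nat.find hex = k + 1 := by
    refine Nat.exists_eq_succ_of_ne_zero fun h => ?_
    rw [h] at h1
    exact h1 hx0
  rw [hk] at h1 h2
  exact mem_iUnion.2 ⟨k, hxU, h2, h1, hno⟩

section

variable {M : Type*} [TopologicalSpace M] [ChartedSpace (Fin 2 → ℂ) M]

/-- linear coordinates -/
noncomputable def lin : (ℂ × ℂ) ≃L[ℂ] (Fin 2 → ℂ) := (ContinuousLinearEquiv.finTwoArrow ℂ ℂ).symm

theorem lin_zero' (y : ℂ × ℂ) : lin y 0 = y.1 := rfl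

/-- straightening a coordinate function gives a regular chart -/
theorem reg_of_coord {Z : Set M} {q : M} {φ : OpenPartialHomeomorph M (ℂ × ℂ)}
    (hφ : HChart (Fin 2 → ℂ) φ) (hq : q ∈ φ.source) {l : ℂ × ℂ → ℂ}
    (hl : IsCoord (ℂ × ℂ) l (φ q)) (hZ : ∀ᶠ x in 𝓝 q, (x ∈ Z ↔ l (φ x) = 0)) : q ∈ Reg Z := by
  have h1 : Tendsto φ.symm (𝓝 (φ q)) (𝓝 q) := by
    have := (φ.continuousAt_symm (φ.map_source hq)).tendsto
    rwa [φ.left_inv hq] at this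
  obtain ⟨ψ, hψ, hψq, hψO, hψ0, hψl⟩ := exists_straight (E := ℂ × ℂ) (M := ℂ × ℂ) finrank_two hl
    (O := {y | φ.symm y ∈ Z ↔ l (φ (φ.symm y)) = 0}) (h1.eventually hZ)
  refine ⟨(φ.trans ψ).trans lin.toHomeomorph.toOpenPartialHomeomorph, ?_, ?_, ?_, ?_, ?_⟩
  · simp [hq, hψq]
  · change lin (ψ (φ q)) = 0
    rw [hψ0, map_zero]
  · intro x hx
    have hx1 : x ∈ φ.source ∧ φ x ∈ ψ.source := by
      simpa [OpenPartialHomeomorph.trans_source] using hx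
    change x ∈ Z ↔ lin (ψ (φ x)) 0 = 0
    rw [lin_zero', hψl _ hx1.2]
    have h2 := hψO hx1.2
    rw [mem_ofPred_eq, φ.left_inv hx1.1] at h2
    exact h2
  · intro x hx
    have hx1 : x ∈ φ.source ∧ φ x ∈ ψ.source := by
      simpa [OpenPartialHomeomorph.trans_source] using hx
    apply MDifferentiableAt.mdifferentiableWithinAt
    have h2 : MDifferentiableAt 𝓘(ℂ, Fin 2 → ℂ) 𝓘(ℂ, ℂ × ℂ) (ψ ∘ φ) x :=
      MDifferentiableAt.comp (I' := 𝓘(ℂ, ℂ × ℂ)) x (hψ.md _ hx1.2) (hφ.md _ hx1.1)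
    have h3 : MDifferentiableAt 𝓘(ℂ, ℂ × ℂ) 𝓘(ℂ, Fin 2 → ℂ) (fun y => lin y) (ψ (φ x)) :=
      mdifferentiableAt_iff_differentiableAt.2 lin.differentiableAt
    exact MDifferentiableAt.comp (I' := 𝓘(ℂ, ℂ × ℂ)) (g := fun y => lin y) (f := ψ ∘ φ) x h3 h2
  · intro y hy
    have hy1 : lin.symm y ∈ ψ.target ∧ ψ.symm (lin.symm y) ∈ φ.target := by
      have hy2 := hy
      simp only [OpenPartialHomeomorph.trans_target, mem_inter_iff, mem_preimage] at hy2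
      exact hy2.2
    apply MDifferentiableAt.mdifferentiableWithinAt
    have h3 : MDifferentiableAt 𝓘(ℂ, Fin 2 → ℂ) 𝓘(ℂ, ℂ × ℂ) (fun y => lin.symm y) y :=
      mdifferentiableAt_iff_differentiableAt.2 lin.symm.differentiableAt
    have h2 : MDifferentiableAt 𝓘(ℂ, ℂ × ℂ) 𝓘(ℂ, Fin 2 → ℂ) (φ.symm ∘ ψ.symm) (lin.symm y) :=
      MDifferentiableAt.comp (I' := 𝓘(ℂ, ℂ × ℂ)) (lin.symm y) (hφ.mds _ hy1.2) (hψ.mds _ hy1.1)
    exact MDifferentiableAt.comp (I' := 𝓘(ℂ, ℂ × ℂ)) (g := φ.symm ∘ ψ.symm)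
      (f := fun y => lin.symm y) y h2 h3

/-- a regular chart gives a defining coordinate function -/
theorem defines_of_regChart {Z : Set M} {q : M} {κ : OpenPartialHomeomorph M (Fin 2 → ℂ)}
    (h : RegChart Z q κ) : Defines (Fin 2 → ℂ) (fun x => κ x 0) Z q := by
  have hκ : ∀ x ∈ κ.source, MDifferentiableAt 𝓘(ℂ, Fin 2 → ℂ) 𝓘(ℂ, Fin 2 → ℂ) κ x :=
    fun x hx => h.hol.mdifferentiableAt (κ.open_source.mem_nhds hx)
  have hpr : ∀ y : Fin 2 → ℂ, HasFDerivAt (fun y : Fin 2 → ℂ => y 0)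
      (ContinuousLinearMap.proj (R := ℂ) (φ := fun _ : Fin 2 => ℂ) 0) y :=
    fun y => (ContinuousLinearMap.proj (R := ℂ) (φ := fun _ : Fin 2 => ℂ) 0).hasFDerivAt
  have hx0 : ∀ x ∈ κ.source, MDifferentiableAt 𝓘(ℂ, Fin 2 → ℂ) 𝓘(ℂ, ℂ) (fun x => κ x 0) x := by
    intro x hx
    exact MDifferentiableAt.comp (I' := 𝓘(ℂ, Fin 2 → ℂ)) (g := fun y : Fin 2 → ℂ => y 0) x
      (mdifferentiableAt_iff_differentiableAt.2 (hpr _).differentiableAt) (hκ x hx)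
  refine ⟨⟨?_, ?_, ?_⟩, ?_⟩
  · filter_upwards [κ.open_source.mem_nhds h.mem] with x hx using hx0 x hx
  · change κ q 0 = 0
    rw [h.zero]
    rfl
  · intro h0
    have hsy : MDifferentiableAt 𝓘(ℂ, Fin 2 → ℂ) 𝓘(ℂ, Fin 2 → ℂ) κ.symm (κ q) :=
      h.holSymm.mdifferentiableAt (κ.open_target.mem_nhds (κ.map_source h.mem))
    have h1 : HasMFDerivAt 𝓘(ℂ, Fin 2 → ℂ) 𝓘(ℂ, ℂ) (fun x => κ x 0) (κ.symm (κ q))
        (0 : (Fin 2 → ℂ) →L[ℂ] ℂ) := by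
      rw [κ.left_inv h.mem]
      have h2 := (hx0 q h.mem).hasMFDerivAt
      rw [h0] at h2
      exact h2
    have h3 := HasMFDerivAt.comp (κ q) h1 hsy.hasMFDerivAt
    have h4 : ((fun x => κ x 0) ∘ κ.symm) =ᶠ[𝓝 (κ q)] fun y : Fin 2 → ℂ => y 0 := by
      filter_upwards [κ.open_target.mem_nhds (κ.map_source h.mem)] with y hy
      rw [Function.comp_apply, κ.right_inv hy]
    have h5 : HasMFDerivAt 𝓘(ℂ, Fin 2 → ℂ) 𝓘(ℂ, ℂ) (fun y : Fin 2 → ℂ => y 0) (κ q)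
        (0 : (Fin 2 → ℂ) →L[ℂ] ℂ) := h3.congr_of_eventuallyEq h4.symm
    have h6 : HasFDerivAt (fun y : Fin 2 → ℂ => y 0) (0 : (Fin 2 → ℂ) →L[ℂ] ℂ) (κ q) :=
      hasMFDerivAt_iff_hasFDerivAt.1 h5
    have h7 := DFunLike.congr_fun (h6.unique (hpr (κ q))) (fun _ => (1 : ℂ))
    simp at h7
  · filter_upwards [κ.open_source.mem_nhds h.mem] with x hx using h.iff x hx

variable [IsManifold 𝓘(ℂ, Fin 2 → ℂ) 1 M]

/-- a defining coordinate function gives a regular point -/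
theorem reg_of_defines {Z : Set M} {q : M} {l : M → ℂ} (h : Defines (Fin 2 → ℂ) l Z q) :
    q ∈ Reg Z := by
  obtain ⟨φ, hφ, hq, -, hφq, hφl⟩ := exists_straight finrank_fin_two h.1 univ_mem
  refine reg_of_coord hφ hq (l := fun y => y.1) ?_ ?_
  · exact isCoord_fst (by rw [hφq]; rfl)
  · filter_upwards [h.2, φ.open_source.mem_nhds hq] with x hx hxs
    rw [hx, hφl x hxs]

theorem reg_iff {Z : Set M} {q : M} : q ∈ Reg Z ↔ ∃ l, Defines (Fin 2 → ℂ) l Z q :=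
  ⟨fun ⟨_, h⟩ => ⟨_, defines_of_regChart h⟩, fun ⟨_, h⟩ => reg_of_defines h⟩

/-- **(MULT)** -/
theorem exists_mult {Z : Set M} {q : M} {κ : OpenPartialHomeomorph M (Fin 2 → ℂ)}
    (h : RegChart Z q κ) {g : M → ℂ}
    (hg : ∀ᶠ x in 𝓝 q, MDifferentiableAt 𝓘(ℂ, Fin 2 → ℂ) 𝓘(ℂ, ℂ) g x)
    (hZ : ∀ᶠ x in 𝓝 q, (x ∈ Z ↔ g x = 0)) (hne : ∃ᶠ x in 𝓝 q, g x ≠ 0) :
    ∃ m : ℕ, 1 ≤ m ∧ ∃ u : M → ℂ,
      (∀ᶠ x in 𝓝 q, MDifferentiableAt 𝓘(ℂ, Fin 2 → ℂ) 𝓘(ℂ, ℂ) u x) ∧ u q ≠ 0 ∧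
      ∀ᶠ x in 𝓝 q, g x = (κ x 0) ^ m * u x := by
  obtain ⟨m, u, hu, huq, hgu⟩ := exists_factor (E := Fin 2 → ℂ) finrank_fin_two (p := q)
    (S := ({()} : Finset Unit)) (C := fun _ => Z) (l := fun _ x => κ x 0)
    (fun _ _ => defines_of_regChart h) (s := g) hg (not_eventually.2 hne)
    (by
      filter_upwards [hZ] with x hx h0
      exact ⟨(), by simp, hx.2 h0⟩)
  refine ⟨m (), ?_, u, hu, huq, ?_⟩
  · by_contra hm
    have hm0 : m () = 0 := by omega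
    have h1 := hgu.self_of_nhds
    have h2 := hZ.self_of_nhds.1 h.mem_Z
    rw [h2] at h1
    simp [hm0] at h1
    exact huq h1.symm
  · filter_upwards [hgu] with x hx
    rw [hx]
    simp [mul_comm]

/-- **(C0)** -/
theorem countable_sing [SecondCountableTopology M] {Z : Set M}
    (hZ : ∀ p ∈ Z, ∃ g : M → ℂ,
      (∀ᶠ x in 𝓝 p, MDifferentiableAt 𝓘(ℂ, Fin 2 → ℂ) 𝓘(ℂ, ℂ) g x) ∧
      (∀ᶠ x in 𝓝 p, (x ∈ Z ↔ g x = 0)) ∧ ∃ᶠ x in 𝓝 p, g x ≠ 0) :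
    (Z \ Reg Z).Countable := by
  have key : ∀ p ∈ Z, ∃ V ∈ 𝓝 p, ((Z \ Reg Z) ∩ V).Countable := by
    intro p hp
    obtain ⟨g, hg, hgZ, hne⟩ := hZ p hp
    obtain ⟨φ, hφ, hpφ, hφp, h0⟩ := exists_direction finrank_fin_two (s := g) hg
      (not_eventually.2 hne)
    have h1 := HolNear.comp_symm (s := g) hφ hpφ hg
    have h2 : ∀ᶠ y in 𝓝 (φ p), ∀ᶠ x in 𝓝 (φ.symm y), (x ∈ Z ↔ g x = 0) :=
      (eventually_chart (φ := φ) hpφ).2 (eventually_eventually_nhds.2 hgZ)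
    have h3 : ∀ᶠ y in 𝓝 (φ p), y ∈ φ.target := φ.open_target.mem_nhds (φ.map_source hpφ)
    obtain ⟨U₀, hU₀, hU₀o, hpU₀⟩ := _root_.eventually_nhds_iff.1 ((h1.and h2).and h3)
    set G : ℂ × ℂ → ℂ := fun y => g (φ.symm y) with hG
    have hGd : DifferentiableOn ℂ G U₀ := fun y hy => (hU₀ y hy).1.1.differentiableWithinAt
    obtain ⟨d, hd⟩ : ∃ d, (Dw^[d] G) (φ p) ≠ 0 := by
      by_contra hcon
      push Not at hcon
      have h4 : analyticOrderAt (fun t => G (vl (φ p) t)) 0 = ⊤ := by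
        rw [ENat.eq_top_iff_forall_ge]
        intro n
        exact (le_order_iff hU₀o hGd hpU₀ n).2 fun i _ => hcon i
      rw [analyticOrderAt_eq_top] at h4
      apply h0
      filter_upwards [h4] with w hw
      have h5 : vl (φ p) w = (0, w) := by simp [vl, hφp]
      rw [h5] at hw
      exact hw
    have hcont : ContinuousOn (Dw^[d] G) U₀ := (differentiableOn_iter hU₀o hGd d).continuousOn
    set U : Set (ℂ × ℂ) := U₀ ∩ (Dw^[d] G) ⁻¹' {0}ᶜ with hU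
    have hUo : IsOpen U := hcont.isOpen_inter_preimage hU₀o isOpen_compl_singleton
    have hbad := countable_bad hUo (hGd.mono inter_subset_left) fun x hx => ⟨d, hx.2⟩
    refine ⟨φ.source ∩ φ ⁻¹' U, ?_, ?_⟩
    · exact (φ.continuousOn.isOpen_inter_preimage φ.open_source hUo).mem_nhds ⟨hpφ, hpU₀, hd⟩
    · refine (hbad.image φ.symm).mono ?_
      rintro x ⟨⟨hxZ, hxR⟩, hxs, hxU⟩
      have hx1 := (hU₀ _ hxU.1).1.2
      rw [φ.left_inv hxs] at hx1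
      refine ⟨φ x, ⟨hxU, ?_, ?_⟩, φ.left_inv hxs⟩
      · change g (φ.symm (φ x)) = 0
        rw [φ.left_inv hxs]
        exact hx1.self_of_nhds.1 hxZ
      · rintro ⟨l, hl, hGl⟩
        apply hxR
        refine reg_of_coord hφ hxs hl ?_
        filter_upwards [hx1, φ.open_source.mem_nhds hxs,
          (φ.continuousAt hxs).tendsto.eventually hGl] with x' h4 h5 h6
        rw [h4, ← h6]
        change g x' = 0 ↔ g (φ.symm (φ x')) = 0
        rw [φ.left_inv h5]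
  choose! V hV hVc using key
  obtain ⟨t, htZ, htc, hcov⟩ := TopologicalSpace.countable_cover_nhdsWithin
    (f := V) (s := Z) fun x hx => mem_nhdsWithin_of_mem_nhds (hV x hx)
  refine (htc.biUnion fun x hx => hVc x (htZ hx)).mono ?_
  intro x hx
  obtain ⟨y, hy, hxy⟩ := mem_iUnion₂.1 (hcov hx.1)
  exact mem_iUnion₂.2 ⟨y, hy, hx, hxy⟩

end

end Vale.Agent.P267.H535
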