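import Vale.Agent.P267.H62.Curves

/-! P267, package CHEAP-C0 (helper535): zero sets of holomorphic functions of two variables are
smooth curves outside a countable set, local part on `ℂ × ℂ`. -/

open Set Filter Topology Metric
open scoped Manifold ContDiff

namespace Vale.Agent.P267.H535

open Vale.Agent.P267.H62

/-- derivative in the second direction -/
noncomputable def Dw (G : ℂ × ℂ → ℂ) : ℂ × ℂ → ℂ := fun x => fderiv ℂ G x (0, 1)

theorem finrank_two : Module.finrank ℂ (ℂ × ℂ) = 2 := by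
  rw [Module.finrank_prod, Module.finrank_self]

theorem holNear_iff {s : ℂ × ℂ → ℂ} {p : ℂ × ℂ} :
    HolNear (ℂ × ℂ) s p ↔ ∀ᶠ x in 𝓝 p, DifferentiableAt ℂ s x := by
  unfold HolNear
  constructor
  · intro h
    filter_upwards [h] with x hx using mdifferentiableAt_iff_differentiableAt.1 hx
  · intro h
    filter_upwards [h] with x hx using mdifferentiableAt_iff_differentiableAt.2 hx

section

variable {U : Set (ℂ × ℂ)} {G : ℂ × ℂ → ℂ}

theorem differentiableOn_iter (hU : IsOpen U) (hG : DifferentiableOn ℂ G U) (n : ℕ) :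
    DifferentiableOn ℂ (Dw^[n] G) U := by
  induction n with
  | zero => exact hG
  | succ n ih =>
    rw [Function.iterate_succ_apply']
    exact P268.differentiableOn_fderiv_apply hU ih (0, 1)

theorem holNear_iter (hU : IsOpen U) (hG : DifferentiableOn ℂ G U) (n : ℕ) {q : ℂ × ℂ}
    (hq : q ∈ U) : HolNear (ℂ × ℂ) (Dw^[n] G) q := by
  rw [holNear_iff]
  filter_upwards [hU.mem_nhds hq] with x hx
  exact (differentiableOn_iter hU hG n).differentiableAt (hU.mem_nhds hx)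

/-- the vertical line through `x` -/
def vl (x : ℂ × ℂ) (t : ℂ) : ℂ × ℂ := (x.1, x.2 + t)

theorem vl_zero (x : ℂ × ℂ) : vl x 0 = x := by simp [vl]

theorem continuous_vl (x : ℂ × ℂ) : Continuous (vl x) := by
  unfold vl
  fun_prop

theorem hasDerivAt_vl (x : ℂ × ℂ) (t : ℂ) : HasDerivAt (vl x) (0, 1) t := by
  have h1 : HasDerivAt (fun _ : ℂ => x.1) 0 t := hasDerivAt_const _ _
  have h2 : HasDerivAt (fun s : ℂ => x.2 + s) 1 t := (hasDerivAt_id t).const_add _
  exact h1.prodMk h2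

theorem deriv_vl {s : ℂ × ℂ → ℂ} {x : ℂ × ℂ} {t : ℂ} (hs : DifferentiableAt ℂ s (vl x t)) :
    deriv (fun t => s (vl x t)) t = Dw s (vl x t) :=
  (hs.hasFDerivAt.comp_hasDerivAt t (hasDerivAt_vl x t)).deriv

theorem iteratedDeriv_vl (hU : IsOpen U) (hG : DifferentiableOn ℂ G U) (n : ℕ) {x : ℂ × ℂ}
    {t : ℂ} (ht : vl x t ∈ U) :
    iteratedDeriv n (fun t => G (vl x t)) t = (Dw^[n] G) (vl x t) := by
  induction n generalizing t with
  | zero => simp
  | succ n ih =>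
    rw [iteratedDeriv_succ, Function.iterate_succ_apply']
    have h1 : iteratedDeriv n (fun t => G (vl x t)) =ᶠ[𝓝 t] fun t => (Dw^[n] G) (vl x t) := by
      filter_upwards [(continuous_vl x).continuousAt.eventually (hU.mem_nhds ht)] with s hs
      exact ih hs
    rw [h1.deriv_eq]
    exact deriv_vl ((differentiableOn_iter hU hG n).differentiableAt (hU.mem_nhds ht))

theorem analyticAt_vl {s : ℂ × ℂ → ℂ} {q : ℂ × ℂ} (hs : HolNear (ℂ × ℂ) s q) :
    AnalyticAt ℂ (fun t => s (vl q t)) 0 := by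
  rw [holNear_iff] at hs
  rw [Complex.analyticAt_iff_eventually_differentiableAt]
  have h1 : Tendsto (vl q) (𝓝 0) (𝓝 q) := (continuous_vl q).tendsto' 0 q (vl_zero q)
  filter_upwards [h1.eventually hs] with t ht
  exact (ht.hasFDerivAt.comp_hasDerivAt t (hasDerivAt_vl q t)).differentiableAt

/-- order in the vertical direction -/
theorem le_order_iff (hU : IsOpen U) (hG : DifferentiableOn ℂ G U) {q : ℂ × ℂ} (hq : q ∈ U)
    (n : ℕ) : (n : ℕ∞) ≤ analyticOrderAt (fun t => G (vl q t)) 0 ↔ ∀ i < n, (Dw^[i] G) q = 0 := by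
  have hG' : HolNear (ℂ × ℂ) G q := holNear_iter hU hG 0 hq
  rw [natCast_le_analyticOrderAt_iff_iteratedDeriv_eq_zero (analyticAt_vl hG')]
  have h : ∀ i, iteratedDeriv i (fun t => G (vl q t)) 0 = (Dw^[i] G) q := by
    intro i
    rw [iteratedDeriv_vl hU hG i (by rw [vl_zero]; exact hq), vl_zero]
  simp only [h]

theorem order_eq (hU : IsOpen U) (hG : DifferentiableOn ℂ G U) {q : ℂ × ℂ} (hq : q ∈ U)
    {n : ℕ} (h0 : ∀ i < n, (Dw^[i] G) q = 0) (h1 : (Dw^[n] G) q ≠ 0) :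
    analyticOrderAt (fun t => G (vl q t)) 0 = n := by
  apply le_antisymm
  · by_contra h
    rw [not_le] at h
    have h2 : ((n + 1 : ℕ) : ℕ∞) ≤ analyticOrderAt (fun t => G (vl q t)) 0 := by
      rw [Nat.cast_add, Nat.cast_one]
      exact Order.add_one_le_of_lt h
    exact h1 ((le_order_iff hU hG hq (n + 1)).1 h2 n (Nat.lt_succ_self n))
  · exact (le_order_iff hU hG hq n).2 h0

/-- a coordinate function transversal to the vertical direction has vertical order one -/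
theorem order_coord {l : ℂ × ℂ → ℂ} {q : ℂ × ℂ} (hl : HolNear (ℂ × ℂ) l q) (h0 : l q = 0)
    (h1 : Dw l q ≠ 0) : analyticOrderAt (fun t => l (vl q t)) 0 = 1 := by
  apply (analyticAt_vl hl).analyticOrderAt_eq_one_of_zero_deriv_ne_zero
  · rw [vl_zero, h0]
  · have h2 : DifferentiableAt ℂ l (vl q 0) := by
      rw [vl_zero]; exact (holNear_iff.1 hl).self_of_nhds
    rw [deriv_vl h2, vl_zero]
    exact h1

theorem isCoord_of_Dw {l : ℂ × ℂ → ℂ} {q : ℂ × ℂ} (hl : HolNear (ℂ × ℂ) l q) (h0 : l q = 0)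
    (h1 : Dw l q ≠ 0) : IsCoord (ℂ × ℂ) l q := by
  refine ⟨hl, h0, fun h => h1 ?_⟩
  rw [mfderiv_eq_fderiv] at h
  unfold Dw
  rw [h]
  rfl

theorem defines_self {l : ℂ × ℂ → ℂ} {q : ℂ × ℂ} (hl : IsCoord (ℂ × ℂ) l q) :
    Defines (ℂ × ℂ) l {x | l x = 0} q := ⟨hl, Eventually.of_forall fun _ => Iff.rfl⟩

/-- **Key lemma.** At a point of vertical order exactly `k + 1` either the stratum is isolated or the
zero set is a smooth curve. -/
theorem isolated_or_smooth (hU : IsOpen U) (hG : DifferentiableOn ℂ G U) {q : ℂ × ℂ} (hq : q ∈ U)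
    {k : ℕ} (h0 : ∀ i < k + 1, (Dw^[i] G) q = 0) (h1 : (Dw^[k + 1] G) q ≠ 0) :
    (∀ᶠ x in 𝓝[≠] q, ¬ ∀ i < k + 1, (Dw^[i] G) x = 0) ∨
      ∃ l, IsCoord (ℂ × ℂ) l q ∧ ∀ᶠ x in 𝓝 q, (G x = 0 ↔ l x = 0) := by
  set l := Dw^[k] G with hldef
  have hlH : HolNear (ℂ × ℂ) l q := holNear_iter hU hG k hq
  have hl0 : l q = 0 := h0 k (Nat.lt_succ_self k)
  have hDl : Dw l = Dw^[k + 1] G := by rw [hldef, ← Function.iterate_succ_apply' Dw k G]
  have hl1 : Dw l q ≠ 0 := by rw [hDl]; exact h1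
  have hlc : IsCoord (ℂ × ℂ) l q := isCoord_of_Dw hlH hl0 hl1
  have hdef := defines_self hlc
  by_cases hex : ∃ i < k + 1, ∀ᶠ x in 𝓝[≠] q, x ∈ {x | l x = 0} → (Dw^[i] G) x ≠ 0
  · left
    obtain ⟨i, hi, hev⟩ := hex
    filter_upwards [hev] with x hx hall
    exact hx (hall k (Nat.lt_succ_self k)) (hall i hi)
  right
  push Not at hex
  have hall : ∀ᶠ x in 𝓝 q, l x = 0 → ∀ i < k + 1, (Dw^[i] G) x = 0 := by
    have h2 : ∀ i < k + 1, ∀ᶠ x in 𝓝 q, l x = 0 → (Dw^[i] G) x = 0 := by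
      intro i hi
      rcases curve_dichotomy finrank_two hdef (holNear_iter hU hG i hq) with h | h
      · exact h
      · exfalso
        obtain ⟨x, hx1, hx2⟩ := ((hex i hi).and_eventually h).exists
        exact hx2 hx1.1 hx1.2
    have h3 : ∀ᶠ x in 𝓝 q, ∀ i ∈ Finset.range (k + 1), l x = 0 → (Dw^[i] G) x = 0 := by
      rw [Filter.eventually_all_finset]
      intro i hi
      exact h2 i (Finset.mem_range.1 hi)
    filter_upwards [h3] with x hx hlx i hi
    exact hx i (Finset.mem_range.2 hi) hlx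
  refine ⟨l, hlc, ?_⟩
  have hordq : analyticOrderAt (fun t => G (vl q t)) 0 = ((k + 1 : ℕ) : ℕ∞) :=
    order_eq hU hG hq h0 h1
  -- order of a product `l ^ m * u`
  have hprod : ∀ (m : ℕ) (u : ℂ × ℂ → ℂ) (x : ℂ × ℂ), HolNear (ℂ × ℂ) u x →
      HolNear (ℂ × ℂ) l x → l x = 0 → Dw l x ≠ 0 → (∀ᶠ y in 𝓝 x, G y = l y ^ m * u y) →
      analyticOrderAt (fun t => G (vl x t)) 0 = m + analyticOrderAt (fun t => u (vl x t)) 0 := by
    intro m u x hu hl hlx hDlx hGx
    have h2 : Tendsto (vl x) (𝓝 0) (𝓝 x) := (continuous_vl x).tendsto' 0 x (vl_zero x)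
    have h3 : (fun t => G (vl x t)) =ᶠ[𝓝 0]
        ((fun t => l (vl x t)) ^ m) * (fun t => u (vl x t)) := by
      filter_upwards [h2.eventually hGx] with t ht
      simpa using ht
    rw [analyticOrderAt_congr h3,
      analyticOrderAt_mul ((analyticAt_vl hl).pow m) (analyticAt_vl hu),
      analyticOrderAt_pow (analyticAt_vl hl), order_coord hl hlx hDlx]
    simp
  let P : ℕ → Prop := fun m => ∃ u, HolNear (ℂ × ℂ) u q ∧ ∀ᶠ x in 𝓝 q, G x = l x ^ m * u x
  have hP0 : P 0 := ⟨G, holNear_iter hU hG 0 hq, Eventually.of_forall fun x => by simp⟩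
  have hPb : ∀ m, P m → m ≤ k + 1 := by
    rintro m ⟨u, hu, hGu⟩
    have h2 := hprod m u q hu hlH hl0 hl1 hGu
    rw [hordq] at h2
    have h3 : (m : ℕ∞) ≤ ((k + 1 : ℕ) : ℕ∞) := by
      rw [h2]; exact le_self_add
    exact_mod_cast h3
  obtain ⟨m, hm, hm1⟩ : ∃ m, P m ∧ ¬ P (m + 1) := by
    by_contra hcon
    push Not at hcon
    have hall : ∀ m, P m := fun m => Nat.rec hP0 (fun m ih => hcon m ih) m
    have := hPb (k + 2) (hall (k + 2))
    omega
  obtain ⟨u, hu, hGu⟩ := hm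
  have hu1 : ∀ᶠ x in 𝓝[≠] q, x ∈ {x | l x = 0} → u x ≠ 0 := by
    rcases curve_dichotomy finrank_two hdef hu with h | h
    · exfalso
      obtain ⟨u', hu', huu'⟩ := exists_div finrank_two hlc hu h
      apply hm1
      refine ⟨u', hu', ?_⟩
      filter_upwards [hGu, huu'] with x h2 h3
      rw [h2, h3, pow_succ]
      ring
    · exact h
  -- find a point on `l = 0` near `q` with `u ≠ 0`
  have hDlc : ∀ᶠ x in 𝓝 q, Dw l x ≠ 0 := by
    have h2 : ContinuousAt (Dw l) q := by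
      rw [hDl]
      exact ((differentiableOn_iter hU hG (k + 1)).differentiableAt (hU.mem_nhds hq)).continuousAt
    exact h2.eventually_ne hl1
  have hmk : m = k + 1 := by
    have hev : ∀ᶠ x in 𝓝[≠] q, (x ∈ {x | l x = 0} → u x ≠ 0) ∧ x ∈ U ∧ HolNear (ℂ × ℂ) u x ∧
        HolNear (ℂ × ℂ) l x ∧ Dw l x ≠ 0 ∧ (∀ᶠ y in 𝓝 x, G y = l y ^ m * u y) ∧
        (l x = 0 → ∀ i < k + 1, (Dw^[i] G) x = 0) := by
      have h2 : ∀ᶠ x in 𝓝 q, x ∈ U ∧ HolNear (ℂ × ℂ) u x ∧
        HolNear (ℂ × ℂ) l x ∧ Dw l x ≠ 0 ∧ (∀ᶠ y in 𝓝 x, G y = l y ^ m * u y) ∧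
        (l x = 0 → ∀ i < k + 1, (Dw^[i] G) x = 0) := by
        filter_upwards [hU.mem_nhds hq, hu.nearby, hlH.nearby, hDlc,
          eventually_eventually_nhds.2 hGu, hall] with x h2 h3 h4 h5 h6 h7
        exact ⟨h2, h3, h4, h5, h6, h7⟩
      exact hu1.and (h2.filter_mono nhdsWithin_le_nhds)
    obtain ⟨x, hxl, hx1, hxU, hx2, hx3, hx4, hx5, hx6⟩ :=
      ((frequently_mem finrank_two hdef).and_eventually hev).exists
    have hxl' : l x = 0 := hxl
    have h2 := hprod m u x hx2 hx3 hxl' hx4 hx5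
    have h3 : analyticOrderAt (fun t => u (vl x t)) 0 = 0 := by
      rw [(analyticAt_vl hx2).analyticOrderAt_eq_zero, vl_zero]
      exact hx1 hxl
    rw [h3, add_zero] at h2
    have h4 := (le_order_iff hU hG hxU (k + 1)).2 (hx6 hxl')
    rw [h2] at h4
    have h5 : k + 1 ≤ m := by exact_mod_cast h4
    exact le_antisymm (hPb m ⟨u, hu, hGu⟩) h5
  subst hmk
  have huq : u q ≠ 0 := by
    have h2 := hprod (k + 1) u q hu hlH hl0 hl1 hGu
    rw [hordq] at h2
    have h3 : analyticOrderAt (fun t => u (vl q t)) 0 = 0 := by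
      have h4 : ((k + 1 : ℕ) : ℕ∞) + 0 =
          ((k + 1 : ℕ) : ℕ∞) + analyticOrderAt (fun t => u (vl q t)) 0 := by
        rw [add_zero]; exact h2
      exact ((ENat.add_right_injective_of_ne_top (ENat.natCast_ne_top (k + 1))) h4).symm
    rw [(analyticAt_vl hu).analyticOrderAt_eq_zero, vl_zero] at h3
    exact h3
  filter_upwards [hGu, hu.continuousAt.eventually_ne huq] with x h2 h3
  rw [h2]
  constructor
  · intro h
    rcases mul_eq_zero.1 h with h | h
    · exact pow_eq_zero_iff (Nat.succ_ne_zero k) |>.1 h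
    · exact absurd h h3
  · intro h
    rw [h, zero_pow (Nat.succ_ne_zero k), zero_mul]

end

end Vale.Agent.P267.H535
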